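import Vale.Agent.H6.Sat.Main

/-!
# P170: the satisfiability threshold conjecture holds for every `k ≥ 3`

The definitions below restate the setting of the problem file literally.
-/

namespace Vale.Agent.Results.P170.LimitingThreshold

open Finset Filter Topology

/-- A proper `k`-clause on `n` variables: a set of `k` literals `(variable, sign)` on `k` distinct
variables. There are `2^k * choose n k` of them. -/
abbrev ProperClause (n k : ℕ) :=
  {c : Finset (Fin n × Bool) // c.card = k ∧ (c.image Prod.fst).card = k}

/-- The formula `F 0 ∧ ... ∧ F (m-1)` is satisfiable: some assignment `σ` makes a literal of every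
clause true; the literal `(i, b)` is true under `σ` when `σ i = b`. -/
def Satisfiable {n k m : ℕ} (F : Fin m → ProperClause n k) : Prop :=
  ∃ σ : Fin n → Bool, ∀ j, ∃ l ∈ (F j).1, σ l.1 = l.2

open Classical in
/-- `P_{k,n}(m)`: the probability that `m` independent uniformly random proper `k`-clauses
(sampled with replacement) on `n` variables are satisfiable. -/
noncomputable def satProb (k n m : ℕ) : ℝ :=
  ((univ.filter (fun F : Fin m → ProperClause n k => Satisfiable F)).card : ℝ)
    / (Fintype.card (Fin m → ProperClause n k) : ℝ)

/-- Random `k`-SAT has a limiting threshold `α ∈ (0,∞)`. -/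
def HasLimitingThreshold (k : ℕ) : Prop :=
  ∃ α : ℝ, 0 < α ∧
    (∀ c : ℝ, 0 ≤ c → c < α → Tendsto (fun n : ℕ => satProb k n ⌊c * n⌋₊) atTop (𝓝 1)) ∧
    (∀ c : ℝ, α < c → Tendsto (fun n : ℕ => satProb k n ⌊c * n⌋₊) atTop (𝓝 0))

/-- The satisfiability threshold conjecture for every `k ≥ 3`. -/
theorem result (k : ℕ) (hk : 3 ≤ k) : HasLimitingThreshold k := P170.main k hk

end Vale.Agent.Results.P170.LimitingThreshold
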